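import Vale.Agent.P154.D5.K3.Data
import Vale.Agent.P154.ApxLemma

set_option maxRecDepth 100000

namespace Vale.Agent.P154.D5.K3

open PolyR Cert InT OutT

/-- The quotient polynomial for `j = 1`. -/
noncomputable def S1 (u : ℝ) : ℝ :=
  (7 / 4194304 : ℝ) * u ^ 0 + (445 / 16777216 : ℝ) * u ^ 1 + (-4319 / 8388608 : ℝ) * u ^ 2 + (-38635 / 16777216 : ℝ) * u ^ 3 + (113587 / 4194304 : ℝ) * u ^ 4 + (143107 / 8388608 : ℝ) * u ^ 5 + (-6746071 / 16777216 : ℝ) * u ^ 6 + (10228859 / 16777216 : ℝ) * u ^ 7

/-- Certificate polynomial. -/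
def lpu1 : List ITm := [⟨(-834887714518117718398571014404296875),0,0⟩,⟨23415368332280195318162441253662109375,1,0⟩,⟨(-197172895818902179598808288574218750000),2,0⟩,⟨(-353444997750931884348392486572265625000),3,0⟩,⟨1665852141493262066523239135742187500000,4,0⟩,⟨420577090076480228552264741894531250000,5,0⟩,⟨(-3972945011482149029919057906725394375000),6,0⟩,⟨2414325083062452571596804658985837190312,7,0⟩]

/-- Certificate tree. -/
def tpu1 : OutT := (A (A (A (A (A (O l) (O l)) (A (O l) (O l))) (A (O l) (O l))) (A (A (O l) (O l)) (A (O l) (O l)))) (A (A (A (A (O l) (O l)) (A (A (O l) (O l)) (A (O l) (O l)))) (A (A (A (O l) (A (O l) (O l))) (A (A (O l) (O l)) (A (A (O l) (O l)) (A (O l) (O l))))) (A (A (A (A (O l) (O l)) (A (O l) (O l))) (A (A (O l) (O l)) (A (O l) (O l)))) (A (A (A (O l) (O l)) (A (O l) (O l))) (A (O l) (O l)))))) (A (A (A (A (A (O l) (O l)) (A (O l) (O l))) (A (A (O l) (O l)) (O l))) (A (A (O l) (O l)) (A (O l) (O l)))) (A (A (A (O l) (O l)) (A (O l) (O l))) (A (A (O l) (O l)) (A (A (O l) (O l))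 (A (O l) (A (O l) (A (O l) (O l))))))))))

theorem hpu1 (x : ℝ) (h0 : 0 ≤ x) (h1 : x ≤ 1) : evalIL lpu1 x 0 ≤ 0 :=
  uni_le 7 65536 lpu1 (by norm_num) (by norm_num) (by decide +kernel)
    (chkOut_sound (uniPb 7 65536 lpu1) tpu1 0 32768 0 32768 (by decide +kernel)) x h0 h1

/-- Certificate polynomial. -/
def lpl1 : List ITm := [⟨(-8792966355031239800155162811279296875),0,0⟩,⟨(-27274027388557442463934421539306640625),1,0⟩,⟨197172895818902179598808288574218750000,2,0⟩,⟨353444997750931884348392486572265625000,3,0⟩,⟨(-1665852141493262066523239135742187500000),4,0⟩,⟨(-420577090076480228552264741894531250000),5,0⟩,⟨3972945011482149029919057906725394375000,6,0⟩,⟨(-2414325083062452571596804658985837190312),7,0⟩]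

/-- Certificate tree. -/
def tpl1 : OutT := (A (A (A (O l) (A (O l) (O l))) (A (A (A (O l) (O l)) (A (A (O l) (O l)) (A (O l) (A (O l) (O l))))) (A (A (A (A (O l) (O l)) (A (O l) (O l))) (A (A (O l) (O l)) (O l))) (A (A (O l) (O l)) (A (O l) (O l)))))) (A (A (A (A (O l) (O l)) (A (O l) (O l))) (A (A (O l) (O l)) (A (O l) (O l)))) (A (A (A (A (O l) (O l)) (A (O l) (O l))) (A (A (O l) (O l)) (A (A (O l) (O l)) (A (O l) (O l))))) (A (A (A (A (O l) (A (O l) (O l))) (A (A (O l) (O l)) (A (O l) (O l)))) (A (A (A (A (O l) (O l)) (A (O l) (O l))) (A (A (O l) (O l)) (A (O l) (O l)))) (A (A (A (O l) (O l)) (A (O l) (O l))) (A (A (O l) (O l)) (O l))))) (A (A (A (A (O l) (O l)) (A (O l) (O l))) (A (O l) (O l))) (A (A (O l) (O l)) (O l)))))))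

theorem hpl1 (x : ℝ) (h0 : 0 ≤ x) (h1 : x ≤ 1) : evalIL lpl1 x 0 ≤ 0 :=
  uni_le 7 65536 lpl1 (by norm_num) (by norm_num) (by decide +kernel)
    (chkOut_sound (uniPb 7 65536 lpl1) tpl1 0 32768 0 32768 (by decide +kernel)) x h0 h1

/-- Certificate polynomial. -/
def lnu1 : List ITm := [⟨(-13358203432289883494377136230468750000),0,0⟩,⟨(-187322946658241562545299530029296875000),1,0⟩,⟨(-788691583275608718395233154296875000000),2,0⟩,⟨706889995501863768696784973144531250000,3,0⟩,⟨1665852141493262066523239135742187500000,4,0⟩,⟨(-210288545038240114276132370947265625000),5,0⟩,⟨(-993236252870537257479764476681348593750),6,0⟩,⟨(-301790635382806571449600582373229648789),7,0⟩]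

/-- Certificate tree. -/
def tnu1 : OutT := (A (A (A (O l) (O l)) (O l)) (A (A (O l) (A (O l) (O l))) (A (A (A (O l) (O l)) (A (A (O l) (O l)) (A (O l) (O l)))) (A (A (A (O l) (O l)) (O l)) (A (O l) (O l))))))

theorem hnu1 (x : ℝ) (h0 : 0 ≤ x) (h1 : x ≤ 1) : evalIL lnu1 x 0 ≤ 0 :=
  uni_le 7 65536 lnu1 (by norm_num) (by norm_num) (by decide +kernel)
    (chkOut_sound (uniPb 7 65536 lnu1) tnu1 0 32768 0 32768 (by decide +kernel)) x h0 h1

/-- Certificate polynomial. -/
def lnl1 : List ITm := [⟨(-140687461680499836802482604980468750000),0,0⟩,⟨218192219108459539711475372314453125000,1,0⟩,⟨788691583275608718395233154296875000000,2,0⟩,⟨(-706889995501863768696784973144531250000),3,0⟩,⟨(-1665852141493262066523239135742187500000),4,0⟩,⟨210288545038240114276132370947265625000,5,0⟩,⟨993236252870537257479764476681348593750,6,0⟩,⟨301790635382806571449600582373229648789,7,0⟩]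

/-- Certificate tree. -/
def tnl1 : OutT := (A (A (O l) (A (A (O l) (O l)) (A (A (O l) (O l)) (A (O l) (A (O l) (O l)))))) (A (A (A (A (O l) (O l)) (O l)) (A (O l) (O l))) (A (O l) (A (O l) (A (O l) (A (O l) (A (O l) (O l))))))))

theorem hnl1 (x : ℝ) (h0 : 0 ≤ x) (h1 : x ≤ 1) : evalIL lnl1 x 0 ≤ 0 :=
  uni_le 7 65536 lnl1 (by norm_num) (by norm_num) (by decide +kernel)
    (chkOut_sound (uniPb 7 65536 lnl1) tnl1 0 32768 0 32768 (by decide +kernel)) x h0 h1

theorem apx1 (u : ℝ) (h0 : -(31311 / 156250 : ℝ) ≤ u) (h1 : u ≤ 2 * (31311 / 156250 : ℝ)) :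
    |((1 + u)⁻¹) ^ 1 - evalZ Ax.p1 (3 * u) / Ax.D1| ≤ Ax.e1 * |u| ^ Ax.m1 := by
  have hu : 0 < 1 + u := by norm_num at h0 ⊢; linarith
  refine apx_of_S 1 2 _ (S1 u) _ u hu ?_ ?_ ?_
  · simp only [Ax, evalZ_cons, evalZ_nil, S1]
    push_cast
    ring
  · rcases le_total 0 u with hs | hs
    · have hx := hpu1 (u / (2 * (31311 / 156250 : ℝ))) (by positivity) (by rw [div_le_one (by norm_num)]; exact h1)
      have e : evalIL lpu1 (u / (2 * (31311 / 156250 : ℝ))) 0 = 2384185791015625000000000000000000000000000 * (S1 u - Ax.e1 * (1 + u) ^ 1) := by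
        simp only [lpu1, evalIL, List.map_cons, List.map_nil, List.sum_cons, List.sum_nil, S1, Ax]
        push_cast
        ring
      rw [e] at hx
      have := cmul_nonpos (by norm_num) hx
      simp only [Ax] at this ⊢
      linarith
    · have hx := hnu1 (-u / (31311 / 156250 : ℝ)) (by apply div_nonneg <;> [linarith; norm_num]) (by rw [div_le_one (by norm_num)]; linarith)
      have e : evalIL lnu1 (-u / (31311 / 156250 : ℝ)) 0 = 38146972656250000000000000000000000000000000 * (S1 u - Ax.e1 * (1 + u) ^ 1) := by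
        simp only [lnu1, evalIL, List.map_cons, List.map_nil, List.sum_cons, List.sum_nil, S1, Ax]
        push_cast
        ring
      rw [e] at hx
      have := cmul_nonpos (by norm_num) hx
      simp only [Ax] at this ⊢
      linarith
  · rcases le_total 0 u with hs | hs
    · have hx := hpl1 (u / (2 * (31311 / 156250 : ℝ))) (by positivity) (by rw [div_le_one (by norm_num)]; exact h1)
      have e : evalIL lpl1 (u / (2 * (31311 / 156250 : ℝ))) 0 = 2384185791015625000000000000000000000000000 * (-S1 u - Ax.e1 * (1 + u) ^ 1) := by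
        simp only [lpl1, evalIL, List.map_cons, List.map_nil, List.sum_cons, List.sum_nil, S1, Ax]
        push_cast
        ring
      rw [e] at hx
      have := cmul_nonpos (by norm_num) hx
      simp only [Ax] at this ⊢
      linarith
    · have hx := hnl1 (-u / (31311 / 156250 : ℝ)) (by apply div_nonneg <;> [linarith; norm_num]) (by rw [div_le_one (by norm_num)]; linarith)
      have e : evalIL lnl1 (-u / (31311 / 156250 : ℝ)) 0 = 38146972656250000000000000000000000000000000 * (-S1 u - Ax.e1 * (1 + u) ^ 1) := by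
        simp only [lnl1, evalIL, List.map_cons, List.map_nil, List.sum_cons, List.sum_nil, S1, Ax]
        push_cast
        ring
      rw [e] at hx
      have := cmul_nonpos (by norm_num) hx
      simp only [Ax] at this ⊢
      linarith

/-- The quotient polynomial for `j = 2`. -/
noncomputable def S2 (u : ℝ) : ℝ :=
  (277 / 16777216 : ℝ) * u ^ 0 + (4379 / 16777216 : ℝ) * u ^ 1 + (-80623 / 16777216 : ℝ) * u ^ 2 + (-54533 / 2097152 : ℝ) * u ^ 3 + (4081703 / 16777216 : ℝ) * u ^ 4 + (1621997 / 4194304 : ℝ) * u ^ 5 + (-62704363 / 16777216 : ℝ) * u ^ 6 + (40895427 / 16777216 : ℝ) * u ^ 7 + (11109665 / 2097152 : ℝ) * u ^ 8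

/-- Certificate polynomial. -/
def lpu2 : List ITm := [⟨(-821287482466459550778381526470184326171875),0,0⟩,⟨26572999097140836965991184115409851074218750,1,0⟩,⟨(-230962077989035560676711611449718475341796875),2,0⟩,⟨(-498884846961345113217830657958984375000000000),3,0⟩,⟨1870678885867625767229663372039794921875000000,4,0⟩,⟨1191721541176847920211952864916992187500000000,5,0⟩,⟨(-4616038472227312771985027796204065859375000000),6,0⟩,⟨1206572199165242496532352708704059744717000000,7,0⟩,⟨1050936378620955318049198999369275093536856576,8,0⟩]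

/-- Certificate tree. -/
def tpu2 : OutT := (A (A (A (A (A (O l) (O l)) (A (A (O l) (O l)) (O l))) (A (O l) (O l))) (A (A (O l) (O l)) (A (O l) (O l)))) (A (A (A (A (O l) (O l)) (A (O l) (A (O l) (O l)))) (A (A (A (O l) (A (O l) (O l))) (A (A (O l) (O l)) (A (A (O l) (O l)) (A (O l) (O l))))) (A (A (A (A (O l) (O l)) (A (O l) (O l))) (A (A (O l) (O l)) (A (O l) (O l)))) (A (A (A (O l) (O l)) (O l)) (A (O l) (O l)))))) (A (A (A (A (A (O l) (O l)) (A (O l) (O l))) (A (O l) (O l))) (A (A (O l) (O l)) (A (O l) (O l)))) (A (A (A (O l) (O l)) (A (O l) (O l))) (A (A (O l) (O l)) (A (O l) (A (O l) (A (O l) (A (O l) (O l))))))))))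

theorem hpu2 (x : ℝ) (h0 : 0 ≤ x) (h1 : x ≤ 1) : evalIL lpu2 x 0 ≤ 0 :=
  uni_le 8 65536 lpu2 (by norm_num) (by norm_num) (by decide +kernel)
    (chkOut_sound (uniPb 8 65536 lpu2) tpu2 0 32768 0 32768 (by decide +kernel)) x h0 h1

/-- Certificate polynomial. -/
def lpl2 : List ITm := [⟨(-10662304372743847125093452632427215576171875),0,0⟩,⟨(-35777805358350178721593692898750305175781250),1,0⟩,⟨229117523180429316198569722473621368408203125,2,0⟩,⟨498884846961345113217830657958984375000000000,3,0⟩,⟨(-1870678885867625767229663372039794921875000000),4,0⟩,⟨(-1191721541176847920211952864916992187500000000),5,0⟩,⟨4616038472227312771985027796204065859375000000,6,0⟩,⟨(-1206572199165242496532352708704059744717000000),7,0⟩,⟨(-1050936378620955318049198999369275093536856576),8,0⟩]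

/-- Certificate tree. -/
def tpl2 : OutT := (A (A (A (O l) (O l)) (A (A (A (O l) (O l)) (A (A (O l) (O l)) (A (O l) (A (O l) (O l))))) (A (A (A (A (O l) (O l)) (A (O l) (O l))) (A (A (O l) (O l)) (O l))) (A (A (O l) (O l)) (A (O l) (O l)))))) (A (A (A (A (O l) (O l)) (A (O l) (O l))) (A (A (O l) (O l)) (A (O l) (O l)))) (A (A (A (O l) (A (O l) (O l))) (A (A (O l) (O l)) (A (O l) (A (O l) (O l))))) (A (A (A (A (O l) (O l)) (A (A (O l) (O l)) (A (O l) (O l)))) (A (A (A (O l) (A (O l) (O l))) (A (A (O l) (O l)) (A (O l) (O l)))) (A (A (A (O l) (O l)) (A (O l) (O l))) (A (O l) (O l))))) (A (A (A (A (O l) (O l)) (A (O l) (O l))) (A (O l) (O l))) (A (A (O l) (O l)) (O l)))))))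

theorem hpl2 (x : ℝ) (h0 : 0 ≤ x) (h1 : x ≤ 1) : evalIL lpl2 x 0 ≤ 0 :=
  uni_le 8 65536 lpl2 (by norm_num) (by norm_num) (by decide +kernel)
    (chkOut_sound (uniPb 8 65536 lpl2) tpl2 0 32768 0 32768 (by decide +kernel)) x h0 h1

/-- Certificate polynomial. -/
def lnu2 : List ITm := [⟨(-3285149929865838203113526105880737304687500),0,0⟩,⟨(-53145998194281673931982368230819702148437500),1,0⟩,⟨(-230962077989035560676711611449718475341796875),2,0⟩,⟨249442423480672556608915328979492187500000000,3,0⟩,⟨467669721466906441807415843009948730468750000,4,0⟩,⟨(-148965192647105990026494108114624023437500000),5,0⟩,⟨(-288502404514207048249064237262754116210937500),6,0⟩,⟨(-37705381223913828016636022147001867022406250),7,0⟩,⟨16420880915952426844518734365144923336513384,8,0⟩]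

/-- Certificate tree. -/
def tnu2 : OutT := (A (A (A (O l) (O l)) (O l)) (A (A (O l) (A (O l) (O l))) (A (A (A (O l) (O l)) (A (A (O l) (O l)) (A (A (O l) (O l)) (A (O l) (O l))))) (A (A (A (A (O l) (O l)) (O l)) (A (O l) (O l))) (A (O l) (O l))))))

theorem hnu2 (x : ℝ) (h0 : 0 ≤ x) (h1 : x ≤ 1) : evalIL lnu2 x 0 ≤ 0 :=
  uni_le 8 65536 lnu2 (by norm_num) (by norm_num) (by decide +kernel)
    (chkOut_sound (uniPb 8 65536 lnu2) tnu2 0 32768 0 32768 (by decide +kernel)) x h0 h1

/-- Certificate polynomial. -/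
def lnl2 : List ITm := [⟨(-42649217490975388500373810529708862304687500),0,0⟩,⟨71555610716700357443187385797500610351562500,1,0⟩,⟨229117523180429316198569722473621368408203125,2,0⟩,⟨(-249442423480672556608915328979492187500000000),3,0⟩,⟨(-467669721466906441807415843009948730468750000),4,0⟩,⟨148965192647105990026494108114624023437500000,5,0⟩,⟨288502404514207048249064237262754116210937500,6,0⟩,⟨37705381223913828016636022147001867022406250,7,0⟩,⟨(-16420880915952426844518734365144923336513384),8,0⟩]

/-- Certificate tree. -/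
def tnl2 : OutT := (A (A (O l) (A (A (O l) (O l)) (A (A (O l) (O l)) (A (A (O l) (O l)) (A (O l) (O l)))))) (A (A (A (A (O l) (O l)) (O l)) (A (O l) (O l))) (A (O l) (A (O l) (A (O l) (A (O l) (A (O l) (O l))))))))

theorem hnl2 (x : ℝ) (h0 : 0 ≤ x) (h1 : x ≤ 1) : evalIL lnl2 x 0 ≤ 0 :=
  uni_le 8 65536 lnl2 (by norm_num) (by norm_num) (by decide +kernel)
    (chkOut_sound (uniPb 8 65536 lnl2) tnl2 0 32768 0 32768 (by decide +kernel)) x h0 h1

theorem apx2 (u : ℝ) (h0 : -(31311 / 156250 : ℝ) ≤ u) (h1 : u ≤ 2 * (31311 / 156250 : ℝ)) :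
    |((1 + u)⁻¹) ^ 2 - evalZ Ax.p2 (3 * u) / Ax.D2| ≤ Ax.e2 * |u| ^ Ax.m2 := by
  have hu : 0 < 1 + u := by norm_num at h0 ⊢; linarith
  refine apx_of_S 2 2 _ (S2 u) _ u hu ?_ ?_ ?_
  · simp only [Ax, evalZ_cons, evalZ_nil, S2]
    push_cast
    ring
  · rcases le_total 0 u with hs | hs
    · have hx := hpu2 (u / (2 * (31311 / 156250 : ℝ))) (by positivity) (by rw [div_le_one (by norm_num)]; exact h1)
      have e : evalIL lpu2 (u / (2 * (31311 / 156250 : ℝ))) 0 = 298023223876953125000000000000000000000000000000 * (S2 u - Ax.e2 * (1 + u) ^ 2) := by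
        simp only [lpu2, evalIL, List.map_cons, List.map_nil, List.sum_cons, List.sum_nil, S2, Ax]
        push_cast
        ring
      rw [e] at hx
      have := cmul_nonpos (by norm_num) hx
      simp only [Ax] at this ⊢
      linarith
    · have hx := hnu2 (-u / (31311 / 156250 : ℝ)) (by apply div_nonneg <;> [linarith; norm_num]) (by rw [div_le_one (by norm_num)]; linarith)
      have e : evalIL lnu2 (-u / (31311 / 156250 : ℝ)) 0 = 1192092895507812500000000000000000000000000000000 * (S2 u - Ax.e2 * (1 + u) ^ 2) := by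
        simp only [lnu2, evalIL, List.map_cons, List.map_nil, List.sum_cons, List.sum_nil, S2, Ax]
        push_cast
        ring
      rw [e] at hx
      have := cmul_nonpos (by norm_num) hx
      simp only [Ax] at this ⊢
      linarith
  · rcases le_total 0 u with hs | hs
    · have hx := hpl2 (u / (2 * (31311 / 156250 : ℝ))) (by positivity) (by rw [div_le_one (by norm_num)]; exact h1)
      have e : evalIL lpl2 (u / (2 * (31311 / 156250 : ℝ))) 0 = 298023223876953125000000000000000000000000000000 * (-S2 u - Ax.e2 * (1 + u) ^ 2) := by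
        simp only [lpl2, evalIL, List.map_cons, List.map_nil, List.sum_cons, List.sum_nil, S2, Ax]
        push_cast
        ring
      rw [e] at hx
      have := cmul_nonpos (by norm_num) hx
      simp only [Ax] at this ⊢
      linarith
    · have hx := hnl2 (-u / (31311 / 156250 : ℝ)) (by apply div_nonneg <;> [linarith; norm_num]) (by rw [div_le_one (by norm_num)]; linarith)
      have e : evalIL lnl2 (-u / (31311 / 156250 : ℝ)) 0 = 1192092895507812500000000000000000000000000000000 * (-S2 u - Ax.e2 * (1 + u) ^ 2) := by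
        simp only [lnl2, evalIL, List.map_cons, List.map_nil, List.sum_cons, List.sum_nil, S2, Ax]
        push_cast
        ring
      rw [e] at hx
      have := cmul_nonpos (by norm_num) hx
      simp only [Ax] at this ⊢
      linarith

/-- The quotient polynomial for `j = 3`. -/
noncomputable def S3 (u : ℝ) : ℝ :=
  (-659 / 8388608 : ℝ) * u ^ 0 + (206657 / 16777216 : ℝ) * u ^ 1 + (775485 / 16777216 : ℝ) * u ^ 2 + (-462377 / 524288 : ℝ) * u ^ 3 + (-11413857 / 8388608 : ℝ) * u ^ 4 + (254895839 / 16777216 : ℝ) * u ^ 5 + (-8537133 / 16777216 : ℝ) * u ^ 6 + (-78515549 / 2097152 : ℝ) * u ^ 7 + (-23375281 / 1048576 : ℝ) * u ^ 8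

/-- Certificate polynomial. -/
def lpu3 : List ITm := [⟨(-1016965678335424172473722137510776519775390625),0,0⟩,⟨6274270507784507344695157371461391448974609375,1,0⟩,⟨10629728129365196991784614510834217071533203125,2,0⟩,⟨(-84657304216423494761387701146304607391357421875),3,0⟩,⟨(-52310668601347039303630528450012207031250000000),4,0⟩,⟨234097891436178440833915524605987548828125000000,5,0⟩,⟨(-3142343888456483910619972034871880078125000000),6,0⟩,⟨(-92660412740619000098341821138619072871160000000),7,0⟩,⟨(-22112217752188948134659684549602195995761624064),8,0⟩]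

/-- Certificate tree. -/
def tpu3 : OutT := (A (A (A (O l) (A (A (O l) (O l)) (A (A (O l) (O l)) (A (O l) (O l))))) (A (A (A (O l) (O l)) (O l)) (A (O l) (O l)))) (A (A (A (O l) (O l)) (A (O l) (O l))) (A (A (A (O l) (O l)) (A (A (O l) (O l)) (A (O l) (A (O l) (O l))))) (A (A (A (A (A (O l) (O l)) (A (O l) (O l))) (A (A (O l) (O l)) (O l))) (A (A (O l) (O l)) (O l))) (A (A (O l) (O l)) (O l))))))

theorem hpu3 (x : ℝ) (h0 : 0 ≤ x) (h1 : x ≤ 1) : evalIL lpu3 x 0 ≤ 0 :=
  uni_le 8 65536 lpu3 (by norm_num) (by norm_num) (by decide +kernel)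
    (chkOut_sound (uniPb 8 65536 lpu3) tpu3 0 32768 0 32768 (by decide +kernel)) x h0 h1

/-- Certificate polynomial. -/
def lpl3 : List ITm := [⟨(-782841846902471161229186691343784332275390625),0,0⟩,⟨(-8438255407217098991168313659727573394775390625),1,0⟩,⟨(-11497011728547710617931443266570568084716796875),2,0⟩,⟨84541440678187745709021692164242267608642578125,3,0⟩,⟨52310668601347039303630528450012207031250000000,4,0⟩,⟨(-234097891436178440833915524605987548828125000000),5,0⟩,⟨3142343888456483910619972034871880078125000000,6,0⟩,⟨92660412740619000098341821138619072871160000000,7,0⟩,⟨22112217752188948134659684549602195995761624064,8,0⟩]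

/-- Certificate tree. -/
def tpl3 : OutT := (A (A (A (O l) (O l)) (A (O l) (A (O l) (A (O l) (O l))))) (A (A (A (A (O l) (A (O l) (O l))) (A (A (A (O l) (O l)) (A (O l) (O l))) (A (A (O l) (O l)) (A (O l) (O l))))) (A (A (A (O l) (O l)) (A (O l) (O l))) (A (O l) (O l)))) (A (A (A (O l) (O l)) (O l)) (A (O l) (A (O l) (A (O l) (A (O l) (A (O l) (O l)))))))))

theorem hpl3 (x : ℝ) (h0 : 0 ≤ x) (h1 : x ≤ 1) : evalIL lpl3 x 0 ≤ 0 :=
  uni_le 8 65536 lpl3 (by norm_num) (by norm_num) (by decide +kernel)
    (chkOut_sound (uniPb 8 65536 lpl3) tpl3 0 32768 0 32768 (by decide +kernel)) x h0 h1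

/-- Certificate polynomial. -/
def lnu3 : List ITm := [⟨(-8135725426683393379789777100086212158203125000),0,0⟩,⟨(-25097082031138029378780629485845565795898437500),1,0⟩,⟨21259456258730393983569229021668434143066406250,2,0⟩,⟨84657304216423494761387701146304607391357421875,3,0⟩,⟨(-26155334300673519651815264225006103515625000000),4,0⟩,⟨(-58524472859044610208478881151496887207031250000),5,0⟩,⟨(-392792986057060488827496504358985009765625000),6,0⟩,⟨5791275796288687506146363821163692054447500000,7,0⟩,⟨(-691006804755904629208115142175068624867550752),8,0⟩]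

/-- Certificate tree. -/
def tnu3 : OutT := (A (O l) (A (A (O l) (A (O l) (O l))) (A (A (A (O l) (A (O l) (O l))) (A (A (O l) (O l)) (A (O l) (O l)))) (A (A (O l) (O l)) (O l)))))

theorem hnu3 (x : ℝ) (h0 : 0 ≤ x) (h1 : x ≤ 1) : evalIL lnu3 x 0 ≤ 0 :=
  uni_le 8 65536 lnu3 (by norm_num) (by norm_num) (by decide +kernel)
    (chkOut_sound (uniPb 8 65536 lnu3) tnu3 0 32768 0 32768 (by decide +kernel)) x h0 h1

/-- Certificate polynomial. -/
def lnl3 : List ITm := [⟨(-6262734775219769289833493530750274658203125000),0,0⟩,⟨33753021628868395964673254638910293579101562500,1,0⟩,⟨(-22994023457095421235862886533141136169433593750),2,0⟩,⟨(-84541440678187745709021692164242267608642578125),3,0⟩,⟨26155334300673519651815264225006103515625000000,4,0⟩,⟨58524472859044610208478881151496887207031250000,5,0⟩,⟨392792986057060488827496504358985009765625000,6,0⟩,⟨(-5791275796288687506146363821163692054447500000),7,0⟩,⟨691006804755904629208115142175068624867550752,8,0⟩]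

/-- Certificate tree. -/
def tnl3 : OutT := (A (A (A (O l) (A (O l) (O l))) (A (A (A (O l) (O l)) (A (O l) (O l))) (A (O l) (O l)))) (A (A (O l) (O l)) (A (O l) (A (O l) (A (O l) (A (O l) (O l)))))))

theorem hnl3 (x : ℝ) (h0 : 0 ≤ x) (h1 : x ≤ 1) : evalIL lnl3 x 0 ≤ 0 :=
  uni_le 8 65536 lnl3 (by norm_num) (by norm_num) (by decide +kernel)
    (chkOut_sound (uniPb 8 65536 lnl3) tnl3 0 32768 0 32768 (by decide +kernel)) x h0 h1

theorem apx3 (u : ℝ) (h0 : -(31311 / 156250 : ℝ) ≤ u) (h1 : u ≤ 2 * (31311 / 156250 : ℝ)) :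
    |((1 + u)⁻¹) ^ 3 - evalZ Ax.p3 (3 * u) / Ax.D3| ≤ Ax.e3 * |u| ^ Ax.m3 := by
  have hu : 0 < 1 + u := by norm_num at h0 ⊢; linarith
  refine apx_of_S 3 2 _ (S3 u) _ u hu ?_ ?_ ?_
  · simp only [Ax, evalZ_cons, evalZ_nil, S3]
    push_cast
    ring
  · rcases le_total 0 u with hs | hs
    · have hx := hpu3 (u / (2 * (31311 / 156250 : ℝ))) (by positivity) (by rw [div_le_one (by norm_num)]; exact h1)
      have e : evalIL lpu3 (u / (2 * (31311 / 156250 : ℝ))) 0 = 1490116119384765625000000000000000000000000000000 * (S3 u - Ax.e3 * (1 + u) ^ 3) := by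
        simp only [lpu3, evalIL, List.map_cons, List.map_nil, List.sum_cons, List.sum_nil, S3, Ax]
        push_cast
        ring
      rw [e] at hx
      have := cmul_nonpos (by norm_num) hx
      simp only [Ax] at this ⊢
      linarith
    · have hx := hnu3 (-u / (31311 / 156250 : ℝ)) (by apply div_nonneg <;> [linarith; norm_num]) (by rw [div_le_one (by norm_num)]; linarith)
      have e : evalIL lnu3 (-u / (31311 / 156250 : ℝ)) 0 = 11920928955078125000000000000000000000000000000000 * (S3 u - Ax.e3 * (1 + u) ^ 3) := by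
        simp only [lnu3, evalIL, List.map_cons, List.map_nil, List.sum_cons, List.sum_nil, S3, Ax]
        push_cast
        ring
      rw [e] at hx
      have := cmul_nonpos (by norm_num) hx
      simp only [Ax] at this ⊢
      linarith
  · rcases le_total 0 u with hs | hs
    · have hx := hpl3 (u / (2 * (31311 / 156250 : ℝ))) (by positivity) (by rw [div_le_one (by norm_num)]; exact h1)
      have e : evalIL lpl3 (u / (2 * (31311 / 156250 : ℝ))) 0 = 1490116119384765625000000000000000000000000000000 * (-S3 u - Ax.e3 * (1 + u) ^ 3) := by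
        simp only [lpl3, evalIL, List.map_cons, List.map_nil, List.sum_cons, List.sum_nil, S3, Ax]
        push_cast
        ring
      rw [e] at hx
      have := cmul_nonpos (by norm_num) hx
      simp only [Ax] at this ⊢
      linarith
    · have hx := hnl3 (-u / (31311 / 156250 : ℝ)) (by apply div_nonneg <;> [linarith; norm_num]) (by rw [div_le_one (by norm_num)]; linarith)
      have e : evalIL lnl3 (-u / (31311 / 156250 : ℝ)) 0 = 11920928955078125000000000000000000000000000000000 * (-S3 u - Ax.e3 * (1 + u) ^ 3) := by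
        simp only [lnl3, evalIL, List.map_cons, List.map_nil, List.sum_cons, List.sum_nil, S3, Ax]
        push_cast
        ring
      rw [e] at hx
      have := cmul_nonpos (by norm_num) hx
      simp only [Ax] at this ⊢
      linarith

/-- The quotient polynomial for `j = 4`. -/
noncomputable def S4 (u : ℝ) : ℝ :=
  (-181151 / 16777216 : ℝ) * u ^ 0 + (96721 / 16777216 : ℝ) * u ^ 1 + (30490465 / 16777216 : ℝ) * u ^ 2 + (3961971 / 2097152 : ℝ) * u ^ 3 + (-40546339 / 1048576 : ℝ) * u ^ 4 + (-302377847 / 16777216 : ℝ) * u ^ 5 + (2097044357 / 16777216 : ℝ) * u ^ 6 + (1348183207 / 8388608 : ℝ) * u ^ 7 + (930391593 / 16777216 : ℝ) * u ^ 8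

/-- Certificate polynomial. -/
def lpu4 : List ITm := [⟨(-16510325051566354659371427260339260101318359375),0,0⟩,⟨(-11849943296695641947735566645860671997070312500),1,0⟩,⟨209335663480446849916916107758879661560058593750,2,0⟩,⟨88433447122424853064853232353925704956054687500,3,0⟩,⟨(-743527572263362202766142824254930019378662109375),4,0⟩,⟨(-138852828428696662339741569712783813476562500000),5,0⟩,⟨385939548970427602851384927892413257226562500000,6,0⟩,⟨198882918736566725652195006311558512465485000000,7,0⟩,⟨27503708804642223728776247680431460172600276256,8,0⟩]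

/-- Certificate tree. -/
def tpu4 : OutT := (A (A (O l) (A (A (O l) (O l)) (A (A (O l) (A (O l) (O l))) (A (A (O l) (O l)) (O l))))) (A (A (A (A (O l) (O l)) (O l)) (A (O l) (O l))) (A (O l) (A (O l) (A (O l) (A (O l) (A (O l) (O l))))))))

theorem hpu4 (x : ℝ) (h0 : 0 ≤ x) (h1 : x ≤ 1) : evalIL lpu4 x 0 ≤ 0 :=
  uni_le 8 65536 lpu4 (by norm_num) (by norm_num) (by decide +kernel)
    (chkOut_sound (uniPb 8 65536 lpu4) tpu4 0 32768 0 32768 (by decide +kernel)) x h0 h1

/-- Certificate polynomial. -/
def lpl4 : List ITm := [⟨(-420884160856616063028923235833644866943359375),0,0⟩,⟨(-15292870995793350630265194922685623168945312500),1,0⟩,⟨(-225653141720039608571823919191956520080566406250),2,0⟩,⟨(-92793268444322571390133816748857498168945312500),3,0⟩,⟨743090739094050396498997671045362949371337890625,4,0⟩,⟨138852828428696662339741569712783813476562500000,5,0⟩,⟨(-385939548970427602851384927892413257226562500000),6,0⟩,⟨(-198882918736566725652195006311558512465485000000),7,0⟩,⟨(-27503708804642223728776247680431460172600276256),8,0⟩]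

/-- Certificate tree. -/
def tpl4 : OutT := (A (A (A (A (A (O l) (O l)) (O l)) (O l)) (A (O l) (O l))) (A (A (O l) (A (O l) (O l))) (A (A (A (O l) (A (O l) (O l))) (A (A (O l) (A (O l) (O l))) (A (A (O l) (O l)) (O l)))) (A (A (A (O l) (O l)) (O l)) (O l)))))

theorem hpl4 (x : ℝ) (h0 : 0 ≤ x) (h1 : x ≤ 1) : evalIL lpl4 x 0 ≤ 0 :=
  uni_le 8 65536 lpl4 (by norm_num) (by norm_num) (by decide +kernel)
    (chkOut_sound (uniPb 8 65536 lpl4) tpl4 0 32768 0 32768 (by decide +kernel)) x h0 h1

/-- Certificate polynomial. -/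
def lnu4 : List ITm := [⟨(-264165200825061674549942836165428161621093750000),0,0⟩,⟨94799546373565135581884533166885375976562500000,1,0⟩,⟨837342653921787399667664431035518646240234375000,2,0⟩,⟨(-176866894244849706129706464707851409912109375000),3,0⟩,⟨(-743527572263362202766142824254930019378662109375),4,0⟩,⟨69426414214348331169870784856391906738281250000,5,0⟩,⟨96484887242606900712846231973103314306640625000,6,0⟩,⟨(-24860364842070840706524375788944814058185625000),7,0⟩,⟨1718981800290138983048515480026966260787517266,8,0⟩]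

/-- Certificate tree. -/
def tnu4 : OutT := (A (A (O l) (O l)) (A (A (O l) (A (O l) (A (O l) (A (O l) (O l))))) (A (A (A (A (O l) (O l)) (O l)) (A (O l) (O l))) (A (O l) (O l)))))

theorem hnu4 (x : ℝ) (h0 : 0 ≤ x) (h1 : x ≤ 1) : evalIL lnu4 x 0 ≤ 0 :=
  uni_le 8 65536 lnu4 (by norm_num) (by norm_num) (by decide +kernel)
    (chkOut_sound (uniPb 8 65536 lnu4) tnu4 0 32768 0 32768 (by decide +kernel)) x h0 h1

/-- Certificate polynomial. -/
def lnl4 : List ITm := [⟨(-6734146573705857008462771773338317871093750000),0,0⟩,⟨122342967966346805042121559381484985351562500000,1,0⟩,⟨(-902612566880158434287295676767826080322265625000),2,0⟩,⟨185586536888645142780267633497714996337890625000,3,0⟩,⟨743090739094050396498997671045362949371337890625,4,0⟩,⟨(-69426414214348331169870784856391906738281250000),5,0⟩,⟨(-96484887242606900712846231973103314306640625000),6,0⟩,⟨24860364842070840706524375788944814058185625000,7,0⟩,⟨(-1718981800290138983048515480026966260787517266),8,0⟩]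

/-- Certificate tree. -/
def tnl4 : OutT := (A (A (A (A (O l) (O l)) (A (O l) (O l))) (A (O l) (O l))) (A (O l) (A (O l) (A (O l) (A (O l) (A (O l) (O l)))))))

theorem hnl4 (x : ℝ) (h0 : 0 ≤ x) (h1 : x ≤ 1) : evalIL lnl4 x 0 ≤ 0 :=
  uni_le 8 65536 lnl4 (by norm_num) (by norm_num) (by decide +kernel)
    (chkOut_sound (uniPb 8 65536 lnl4) tnl4 0 32768 0 32768 (by decide +kernel)) x h0 h1

theorem apx4 (u : ℝ) (h0 : -(31311 / 156250 : ℝ) ≤ u) (h1 : u ≤ 2 * (31311 / 156250 : ℝ)) :
    |((1 + u)⁻¹) ^ 4 - evalZ Ax.p4 (3 * u) / Ax.D4| ≤ Ax.e4 * |u| ^ Ax.m4 := by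
  have hu : 0 < 1 + u := by norm_num at h0 ⊢; linarith
  refine apx_of_S 4 2 _ (S4 u) _ u hu ?_ ?_ ?_
  · simp only [Ax, evalZ_cons, evalZ_nil, S4]
    push_cast
    ring
  · rcases le_total 0 u with hs | hs
    · have hx := hpu4 (u / (2 * (31311 / 156250 : ℝ))) (by positivity) (by rw [div_le_one (by norm_num)]; exact h1)
      have e : evalIL lpu4 (u / (2 * (31311 / 156250 : ℝ))) 0 = 745058059692382812500000000000000000000000000000 * (S4 u - Ax.e4 * (1 + u) ^ 4) := by
        simp only [lpu4, evalIL, List.map_cons, List.map_nil, List.sum_cons, List.sum_nil, S4, Ax]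
        push_cast
        ring
      rw [e] at hx
      have := cmul_nonpos (by norm_num) hx
      simp only [Ax] at this ⊢
      linarith
    · have hx := hnu4 (-u / (31311 / 156250 : ℝ)) (by apply div_nonneg <;> [linarith; norm_num]) (by rw [div_le_one (by norm_num)]; linarith)
      have e : evalIL lnu4 (-u / (31311 / 156250 : ℝ)) 0 = 11920928955078125000000000000000000000000000000000 * (S4 u - Ax.e4 * (1 + u) ^ 4) := by
        simp only [lnu4, evalIL, List.map_cons, List.map_nil, List.sum_cons, List.sum_nil, S4, Ax]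
        push_cast
        ring
      rw [e] at hx
      have := cmul_nonpos (by norm_num) hx
      simp only [Ax] at this ⊢
      linarith
  · rcases le_total 0 u with hs | hs
    · have hx := hpl4 (u / (2 * (31311 / 156250 : ℝ))) (by positivity) (by rw [div_le_one (by norm_num)]; exact h1)
      have e : evalIL lpl4 (u / (2 * (31311 / 156250 : ℝ))) 0 = 745058059692382812500000000000000000000000000000 * (-S4 u - Ax.e4 * (1 + u) ^ 4) := by
        simp only [lpl4, evalIL, List.map_cons, List.map_nil, List.sum_cons, List.sum_nil, S4, Ax]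
        push_cast
        ring
      rw [e] at hx
      have := cmul_nonpos (by norm_num) hx
      simp only [Ax] at this ⊢
      linarith
    · have hx := hnl4 (-u / (31311 / 156250 : ℝ)) (by apply div_nonneg <;> [linarith; norm_num]) (by rw [div_le_one (by norm_num)]; linarith)
      have e : evalIL lnl4 (-u / (31311 / 156250 : ℝ)) 0 = 11920928955078125000000000000000000000000000000000 * (-S4 u - Ax.e4 * (1 + u) ^ 4) := by
        simp only [lnl4, evalIL, List.map_cons, List.map_nil, List.sum_cons, List.sum_nil, S4, Ax]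
        push_cast
        ring
      rw [e] at hx
      have := cmul_nonpos (by norm_num) hx
      simp only [Ax] at this ⊢
      linarith

/-- The quotient polynomial for `j = 5`. -/
noncomputable def S5 (u : ℝ) : ℝ :=
  (-242039 / 8388608 : ℝ) * u ^ 0 + (22937 / 4194304 : ℝ) * u ^ 1 + (83055039 / 16777216 : ℝ) * u ^ 2 + (150076703 / 16777216 : ℝ) * u ^ 3 + (-1689940529 / 16777216 : ℝ) * u ^ 4 + (-2324861733 / 16777216 : ℝ) * u ^ 5 + (4972125853 / 16777216 : ℝ) * u ^ 6 + (12361899069 / 16777216 : ℝ) * u ^ 7 + (9097292547 / 16777216 : ℝ) * u ^ 8 + (2291620261 / 16777216 : ℝ) * u ^ 9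

/-- Certificate polynomial. -/
def lpu5 : List ITm := [⟨(-3463320667577984846019489850732497870922088623046875),0,0⟩,⟨(-3447065086632783437181615227018482983112335205078125),1,0⟩,⟨43419683348760092265194998617516830563545227050781250,2,0⟩,⟨32370892370164744502036683115875348448753356933593750,3,0⟩,⟨(-151502382432944690124293446549563668668270111083984375),4,0⟩,⟨(-83423413418576011817588496216152049601078033447265625),5,0⟩,⟨71489755432655896807072593434998778274536132812500000,6,0⟩,⟨71235060867592608688111839297289547967909960937500000,7,0⟩,⟨21010078495260172412264879547153549359407661767500000,8,0⟩,⟨2121119200993124387449067680574033567197759769185632,9,0⟩]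

/-- Certificate tree. -/
def tpu5 : OutT := (A (A (O l) (A (A (O l) (A (O l) (O l))) (A (A (O l) (A (O l) (O l))) (A (A (O l) (O l)) (O l))))) (A (A (A (A (O l) (O l)) (O l)) (A (O l) (O l))) (A (O l) (A (O l) (A (O l) (A (O l) (A (O l) (O l))))))))

theorem hpu5 (x : ℝ) (h0 : 0 ≤ x) (h1 : x ≤ 1) : evalIL lpu5 x 0 ≤ 0 :=
  uni_le 9 65536 lpu5 (by norm_num) (by norm_num) (by decide +kernel)
    (chkOut_sound (uniPb 9 65536 lpu5) tpu5 0 32768 0 32768 (by decide +kernel)) x h0 h1

/-- Certificate polynomial. -/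
def lpl5 : List ITm := [⟨(-104354784362381547424547534319572150707244873046875),0,0⟩,⟨(-3702214022212324540106465065036900341510772705078125),1,0⟩,⟨(-49150270950092551167642795917345210909843444824218750),2,0⟩,⟨(-34667601853496848446926833275938406586647033691406250),3,0⟩,⟨151042143900895976481935331402928568422794342041015625,4,0⟩,⟨83386522465162949999077456361159943044185638427734375,5,0⟩,⟨(-71489755432655896807072593434998778274536132812500000),6,0⟩,⟨(-71235060867592608688111839297289547967909960937500000),7,0⟩,⟨(-21010078495260172412264879547153549359407661767500000),8,0⟩,⟨(-2121119200993124387449067680574033567197759769185632),9,0⟩]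

/-- Certificate tree. -/
def tpl5 : OutT := (A (A (A (A (O l) (O l)) (O l)) (A (O l) (O l))) (A (A (O l) (A (O l) (O l))) (A (A (A (O l) (A (O l) (O l))) (A (A (O l) (A (O l) (O l))) (A (A (O l) (O l)) (O l)))) (A (A (A (O l) (O l)) (O l)) (O l)))))

theorem hpl5 (x : ℝ) (h0 : 0 ≤ x) (h1 : x ≤ 1) : evalIL lpl5 x 0 ≤ 0 :=
  uni_le 9 65536 lpl5 (by norm_num) (by norm_num) (by decide +kernel)
    (chkOut_sound (uniPb 9 65536 lpl5) tpl5 0 32768 0 32768 (by decide +kernel)) x h0 h1

/-- Certificate polynomial. -/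
def lnu5 : List ITm := [⟨(-110826261362495515072623675223439931869506835937500000),0,0⟩,⟨55153041386124534994905843632295727729797363281250000,1,0⟩,⟨347357466790080738121559988940134644508361816406250000,2,0⟩,⟨(-129483569480658978008146732463501393795013427734375000),3,0⟩,⟨(-303004764865889380248586893099127337336540222167968750),4,0⟩,⟨83423413418576011817588496216152049601078033447265625,5,0⟩,⟨35744877716327948403536296717499389137268066406250000,6,0⟩,⟨(-17808765216898152172027959824322386991977490234375000),7,0⟩,⟨2626259811907521551533109943394193669925957720937500,8,0⟩,⟨(-132569950062070274215566730035877097949859985574102),9,0⟩]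

/-- Certificate tree. -/
def tnu5 : OutT := (A (A (O l) (O l)) (A (A (O l) (A (O l) (A (O l) (A (O l) (O l))))) (A (A (A (A (O l) (O l)) (A (O l) (O l))) (A (O l) (O l))) (A (O l) (O l)))))

theorem hnu5 (x : ℝ) (h0 : 0 ≤ x) (h1 : x ≤ 1) : evalIL lnu5 x 0 ≤ 0 :=
  uni_le 9 65536 lnu5 (by norm_num) (by norm_num) (by decide +kernel)
    (chkOut_sound (uniPb 9 65536 lnu5) tnu5 0 32768 0 32768 (by decide +kernel)) x h0 h1

/-- Certificate polynomial. -/
def lnl5 : List ITm := [⟨(-3339353099596209517585521098226308822631835937500000),0,0⟩,⟨59235424355397192641703441040590405464172363281250000,1,0⟩,⟨(-393202167600740409341142367338761687278747558593750000),2,0⟩,⟨138670407413987393787707333103753626346588134765625000,3,0⟩,⟨302084287801791952963870662805857136845588684082031250,4,0⟩,⟨(-83386522465162949999077456361159943044185638427734375),5,0⟩,⟨(-35744877716327948403536296717499389137268066406250000),6,0⟩,⟨17808765216898152172027959824322386991977490234375000,7,0⟩,⟨(-2626259811907521551533109943394193669925957720937500),8,0⟩,⟨132569950062070274215566730035877097949859985574102,9,0⟩]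

/-- Certificate tree. -/
def tnl5 : OutT := (A (A (A (A (O l) (O l)) (A (O l) (O l))) (A (O l) (O l))) (A (O l) (A (O l) (A (O l) (A (O l) (A (O l) (O l)))))))

theorem hnl5 (x : ℝ) (h0 : 0 ≤ x) (h1 : x ≤ 1) : evalIL lnl5 x 0 ≤ 0 :=
  uni_le 9 65536 lnl5 (by norm_num) (by norm_num) (by decide +kernel)
    (chkOut_sound (uniPb 9 65536 lnl5) tnl5 0 32768 0 32768 (by decide +kernel)) x h0 h1

theorem apx5 (u : ℝ) (h0 : -(31311 / 156250 : ℝ) ≤ u) (h1 : u ≤ 2 * (31311 / 156250 : ℝ)) :
    |((1 + u)⁻¹) ^ 5 - evalZ Ax.p5 (3 * u) / Ax.D5| ≤ Ax.e5 * |u| ^ Ax.m5 := by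
  have hu : 0 < 1 + u := by norm_num at h0 ⊢; linarith
  refine apx_of_S 5 2 _ (S5 u) _ u hu ?_ ?_ ?_
  · simp only [Ax, evalZ_cons, evalZ_nil, S5]
    push_cast
    ring
  · rcases le_total 0 u with hs | hs
    · have hx := hpu5 (u / (2 * (31311 / 156250 : ℝ))) (by positivity) (by rw [div_le_one (by norm_num)]; exact h1)
      have e : evalIL lpu5 (u / (2 * (31311 / 156250 : ℝ))) 0 = 58207660913467407226562500000000000000000000000000000 * (S5 u - Ax.e5 * (1 + u) ^ 5) := by
        simp only [lpu5, evalIL, List.map_cons, List.map_nil, List.sum_cons, List.sum_nil, S5, Ax]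
        push_cast
        ring
      rw [e] at hx
      have := cmul_nonpos (by norm_num) hx
      simp only [Ax] at this ⊢
      linarith
    · have hx := hnu5 (-u / (31311 / 156250 : ℝ)) (by apply div_nonneg <;> [linarith; norm_num]) (by rw [div_le_one (by norm_num)]; linarith)
      have e : evalIL lnu5 (-u / (31311 / 156250 : ℝ)) 0 = 1862645149230957031250000000000000000000000000000000000 * (S5 u - Ax.e5 * (1 + u) ^ 5) := by
        simp only [lnu5, evalIL, List.map_cons, List.map_nil, List.sum_cons, List.sum_nil, S5, Ax]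
        push_cast
        ring
      rw [e] at hx
      have := cmul_nonpos (by norm_num) hx
      simp only [Ax] at this ⊢
      linarith
  · rcases le_total 0 u with hs | hs
    · have hx := hpl5 (u / (2 * (31311 / 156250 : ℝ))) (by positivity) (by rw [div_le_one (by norm_num)]; exact h1)
      have e : evalIL lpl5 (u / (2 * (31311 / 156250 : ℝ))) 0 = 58207660913467407226562500000000000000000000000000000 * (-S5 u - Ax.e5 * (1 + u) ^ 5) := by
        simp only [lpl5, evalIL, List.map_cons, List.map_nil, List.sum_cons, List.sum_nil, S5, Ax]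
        push_cast
        ring
      rw [e] at hx
      have := cmul_nonpos (by norm_num) hx
      simp only [Ax] at this ⊢
      linarith
    · have hx := hnl5 (-u / (31311 / 156250 : ℝ)) (by apply div_nonneg <;> [linarith; norm_num]) (by rw [div_le_one (by norm_num)]; linarith)
      have e : evalIL lnl5 (-u / (31311 / 156250 : ℝ)) 0 = 1862645149230957031250000000000000000000000000000000000 * (-S5 u - Ax.e5 * (1 + u) ^ 5) := by
        simp only [lnl5, evalIL, List.map_cons, List.map_nil, List.sum_cons, List.sum_nil, S5, Ax]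
        push_cast
        ring
      rw [e] at hx
      have := cmul_nonpos (by norm_num) hx
      simp only [Ax] at this ⊢
      linarith

theorem hAx : Ax.OK (-(31311 / 156250 : ℝ)) (2 * (31311 / 156250 : ℝ)) where
  e10 := by simp only [Ax]; norm_num
  e20 := by simp only [Ax]; norm_num
  e30 := by simp only [Ax]; norm_num
  e40 := by simp only [Ax]; norm_num
  e50 := by simp only [Ax]; norm_num
  h1 := fun u a b => by simpa using apx1 u a b
  h2 := apx2
  h3 := apx3
  h4 := apx4
  h5 := apx5

end Vale.Agent.P154.D5.K3
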