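import Vale.Agent.P154.D5.K3.Data
import Vale.Agent.P154.Check2

namespace Vale.Agent.P154.D5.K3

open Cert

/-- Chart (0, 0). -/
def P00 : Pb := chartPb false false Nd w G []

/-- Chart (0, 1). -/
def P01 : Pb := chartPb false true Nd w G []

/-- Chart (1, 0). -/
def P10 : Pb := chartPb true false Nd w G []

/-- Chart (1, 1). -/
def P11 : Pb := chartPb true true Nd w G []

/-- The offset. -/
def KK : ℕ := 41855804968213567224547853478906320725054875457247406540771499545716837934567817284890561672488119458109166910841919797858872862722356017328064756151166307827869405370407152286801072676024887272960758524035337792904616958075776435777990406039363527010043736240963055342423554029893064011082834640896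

end Vale.Agent.P154.D5.K3
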